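import Vale.Agent.P062.Data.D0
import Vale.Agent.P062.Data.D1
import Vale.Agent.P062.Data.D2
import Vale.Agent.P062.Data.D3
import Vale.Agent.P062.Data.D4
import Vale.Agent.P062.Data.D5

namespace Vale.Agent.P062

/-- The list of the strategy trees used after the first move of Maker at the origin. -/
noncomputable def allTrees : T := .cons 251 Data.D0.top (.cons 251 Data.D1.top (.cons 274 Data.D2.top (.cons 251 Data.D3.top (.cons 251 Data.D4.top (.cons 251 Data.D5.top .nil)))))

/-- The intersection of the supports of the trees in `allTrees`. -/
def interMask : ℕ := 121042980470905085566518498823670284801642217676425856804179976492076313116373665430717531006466570489686520776659828736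

/-- The union of the supports of the trees in `allTrees`. -/
def unionMask : ℕ := 14196072810811598061108783495982296323202800964643941643356973400349127950219235093353164987752248261859338336905930334621887778258944

/-- The checker accepts the list. -/
theorem chk_allTrees : chk allTrees (1 <<< 275) = some (interMask, unionMask) := by decide +kernel

end Vale.Agent.P062
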