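import Vale.Agent.P062.FirstReply

/-!
# Reduction of the Snaky problem to a single opening
-/

namespace Vale.Agent.P062

/-- The game is invariant under a bijection of the board that preserves allowed copies. -/
theorem MakerWins.image' (g g' : Cell → Cell) (h1 : ∀ x, g' (g x) = x) (h2 : ∀ x, g (g' x) = x)
    (hcopy : ∀ A, IsCopy A → IsCopy (A.image g)) {M B : Finset Cell} (h : MakerWins M B) :
    MakerWins (M.image g) (B.image g) := by
  have hinj : Function.Injective g := fun x y hxy => by rw [← h1 x, ← h1 y, hxy]
  induction h with
  | done M B A hA hsub => exact .done _ _ (A.image g) (hcopy A hA) (Finset.image_subset_image hsub)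
  | move M B c hM hB h ih =>
    refine .move _ _ (g c) ?_ ?_ ?_
    · rwa [hinj.mem_finset_image]
    · rwa [hinj.mem_finset_image]
    · intro d hd1 hd2
      have e : d = g (g' d) := (h2 d).symm
      have k1 : g' d ∉ insert c M := by
        intro hmem
        apply hd1
        rw [e, ← Finset.image_insert]
        exact Finset.mem_image_of_mem g hmem
      have k2 : g' d ∉ B := by
        intro hmem
        apply hd2
        rw [e]
        exact Finset.mem_image_of_mem g hmem
      have k3 := ih (g' d) k1 k2
      rw [Finset.image_insert, Finset.image_insert, h2 d] at k3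
      exact k3

theorem IsCopy.image_translate {A : Finset Cell} (h : IsCopy A) (u : Cell) :
    IsCopy (A.image (fun x => x + u)) := by
  obtain ⟨t, s, a, b, ha, hb, rfl⟩ := h
  rw [Finset.image_image]
  refine ⟨t + u, s, a, b, ha, hb, ?_⟩
  apply Finset.image_congr
  intro c _
  simp only [Function.comp]
  abel

theorem IsCopy.nonempty {A : Finset Cell} (h : IsCopy A) : A.Nonempty := by
  obtain ⟨t, s, a, b, _, _, rfl⟩ := h
  exact Finset.Nonempty.image ⟨(0, 0), by simp [snaky]⟩ _

/-- Maker wins the Snaky game on the empty board if and only if Maker wins from the position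
after the opening Maker `(0,0)`, Breaker `(1,0)`. -/
theorem reduction : MakerWins ∅ ∅ ↔ MakerWins {(0, 0)} {(1, 0)} := by
  constructor
  · intro h
    cases h with
    | done _ _ A hA hsub =>
      exfalso
      obtain ⟨x, hx⟩ := hA.nonempty
      exact absurd (hsub hx) (by simp)
    | move _ _ c hM hB h =>
      have h1 := h (c + (1, 0)) (by
        obtain ⟨x, y⟩ := c
        simp) (by simp)
      have h2 := MakerWins.image' (fun x => x + (-c)) (fun x => x + c) (by intro x; simp)
        (by intro x; simp) (fun A hA => hA.image_translate (-c)) h1
      have e0 : ((0 : ℤ), (0 : ℤ)) = (0 : Cell) := rfl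
      rw [e0]
      simpa using h2
  · intro h
    refine MakerWins.move ∅ ∅ (0, 0) (by simp) (by simp) ?_
    intro d _ _
    have goal : MakerWins {(0, 0)} {d} := by
      by_cases hd : d ∈ ({(1, 0), (-1, 0), (0, 1), (0, -1)} : Finset Cell)
      · have h01 : MakerWins {(0, 0)} {((0 : ℤ), (1 : ℤ))} := by
          apply firstReply_of_image true 1 1 (by simp) (by simp) (by intro x; simp [act])
          simpa [act] using h
        simp only [Finset.mem_insert, Finset.mem_singleton] at hd
        rcases hd with rfl | rfl | rfl | rfl
        · exact h
        · apply firstReply_of_image false (-1) 1 (by simp) (by simp) (by intro x; simp [act])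
          simpa [act] using h
        · exact h01
        · apply firstReply_of_image false 1 (-1) (by simp) (by simp) (by intro x; simp [act])
          simpa [act] using h01
      · exact firstReply d hd
    simpa using goal

end Vale.Agent.P062
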