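import Vale.Agent.P062.Checker

/-!
# Composing checked strategy trees along a top-level proof tree

Positions are given by two bit masks.  `MW m b` says that Maker, to move, wins the position in
which Maker owns the cells of the mask `m` and Breaker those of the mask `b`.
-/

namespace Vale.Agent.P062

/-- Maker (to move) wins the position coded by the masks `m` (Maker) and `b` (Breaker). -/
def MW (m b : ℕ) : Prop := ∀ M B : Finset Cell, Rep m M → Rep b B → MakerWins M B

/-- Maker wins after each of the listed replies of Breaker. -/
def AllHard : List ℕ → ℕ → ℕ → Prop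
  | [], _, _ => True
  | i :: L, m, b => MW m (b ||| (1 <<< i)) ∧ AllHard L m b

/-- The mask of a list of codes. -/
def maskOf : List ℕ → ℕ
  | [] => 0
  | i :: L => (1 <<< i) ||| maskOf L

theorem allHard_of_testBit : ∀ (L : List ℕ) (m b i : ℕ), AllHard L m b →
    (maskOf L).testBit i = true → MW m (b ||| (1 <<< i)) := by
  intro L
  induction L with
  | nil =>
    intro m b i _ hi
    simp [maskOf] at hi
  | cons j L ih =>
    intro m b i h hi
    rw [maskOf, Nat.testBit_or, testBit_one_shiftLeft, Bool.or_eq_true, decide_eq_true_eq] at hi
    rcases hi with hi | hi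
    · rw [hi]; exact h.1
    · exact ih m b i h.2 hi

/-- One step of a top-level proof: Maker plays the cell coded by `c`; the checked list `l` of
strategy trees refutes every reply of Breaker outside the list `hard`, and the replies in `hard`
are refuted by hypothesis. -/
theorem step (l : T) (m b c I U : ℕ) (hard : List ℕ)
    (h : chk l (m ||| (1 <<< c)) = some (I, U))
    (hcm : m.testBit c = false) (hcb : b.testBit c = false)
    (hU : U &&& b = 0) (hI : I = maskOf hard) (hne : I ≠ full)
    (hhard : AllHard hard (m ||| (1 <<< c)) b) : MW m b := by
  intro M B hM hB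
  have hcM : cellOf c ∉ M := by
    intro hmem
    rw [← hM c, hcm] at hmem
    exact absurd hmem (by simp)
  have hcB : cellOf c ∉ B := by
    intro hmem
    rw [← hB c, hcb] at hmem
    exact absurd hmem (by simp)
  refine MakerWins.move M B (cellOf c) hcM hcB ?_
  intro d _ _
  by_cases hd : ∃ i, I.testBit i = true ∧ cellOf i = d
  · obtain ⟨i, hi, rfl⟩ := hd
    rw [hI] at hi
    exact allHard_of_testBit hard _ b i hhard hi _ _ (hM.insert c) (hB.insert i)
  · refine chk_sound l _ I U h (insert (cellOf c) M) B d (hM.insert c) ?_ ?_ hne
    · intro i hi hmem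
      have h1 : b.testBit i = true := (hB i).mpr hmem
      have h2 : (U &&& b).testBit i = true := by rw [Nat.testBit_and, hi, h1]; rfl
      rw [hU] at h2
      simp at h2
    · intro i hi hid
      exact hd ⟨i, hi, hid⟩

end Vale.Agent.P062
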