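import Vale.Agent.P062.PB.N5
import Vale.Agent.P062.Reduction

/-!
# Maker wins the Snaky achievement game
-/

namespace Vale.Agent.P062

theorem rep_zero : Rep 0 ∅ := by
  intro i
  simp

theorem rep_single (c : ℕ) : Rep (1 <<< c) {cellOf c} := by
  have h := rep_zero.insert c
  rwa [Nat.zero_or] at h

/-- Maker, to move, wins with Maker on `(0,0)` and Breaker on `(1,0)`. -/
theorem wins_adjacent : MakerWins {(0, 0)} {(1, 0)} := by
  have h := PB.n5 {cellOf 275} {cellOf 276} (rep_single 275) (rep_single 276)
  have h275 : cellOf 275 = (0, 0) := by simp [cellOf, W, off]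
  have h276 : cellOf 276 = (1, 0) := by simp [cellOf, W, off]
  rwa [h275, h276] at h

/-- Maker wins the Snaky achievement game from the empty board. -/
theorem makerWins_empty : MakerWins ∅ ∅ := reduction.mpr wins_adjacent

end Vale.Agent.P062
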