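import Vale.Agent.P062.Game

/-!
# A checker for Maker strategy trees

Cells in a window are coded by natural numbers, sets of cells by bit masks.
A value of `T` is a list of strategy trees for Maker (first child / next sibling coding).
-/

namespace Vale.Agent.P062

/-- Width of the coding window. -/
def W : ℕ := 24
/-- Number of codes allowed in trees. -/
def N : ℕ := 576
/-- Offset of the origin inside the window. -/
def off : ℤ := 11

/-- The cell coded by `i`. -/
def cellOf (i : ℕ) : Cell := (((i % W : ℕ) : ℤ) - off, ((i / W : ℕ) : ℤ) - off)

/-- The code of a cell (meaningful for cells in the window). -/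
def cellIdx (p : Cell) : ℕ := (p.2 + off).toNat * W + (p.1 + off).toNat

/-- The cell lies in the window. -/
def inWin (p : Cell) : Bool :=
  decide (0 ≤ p.1 + off) && decide (p.1 + off < (W : ℤ)) && decide (0 ≤ p.2 + off)

theorem cellOf_injective : Function.Injective cellOf := by
  intro i j h
  simp only [cellOf, W, Prod.mk.injEq] at h
  omega

theorem cellOf_cellIdx (p : Cell) (h : inWin p = true) : cellOf (cellIdx p) = p := by
  obtain ⟨x, y⟩ := p
  simp only [inWin, W, off, Bool.and_eq_true] at h
  obtain ⟨⟨h1, h2⟩, h3⟩ := h
  have h1 : 0 ≤ x + 11 := of_decide_eq_true h1
  have h2 : x + 11 < ((24 : ℕ) : ℤ) := of_decide_eq_true h2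
  have h3 : 0 ≤ y + 11 := of_decide_eq_true h3
  simp only [cellOf, cellIdx, W, off, Prod.mk.injEq]
  have hx : (((x + 11).toNat : ℕ) : ℤ) = x + 11 := Int.toNat_of_nonneg h1
  have hy : (((y + 11).toNat : ℕ) : ℤ) = y + 11 := Int.toNat_of_nonneg h3
  generalize (x + 11).toNat = a at *
  generalize (y + 11).toNat = b at *
  have ha : a < 24 := by omega
  have e1 : (b * 24 + a) % 24 = a := by omega
  have e2 : (b * 24 + a) / 24 = b := by omega
  rw [e1, e2]
  omega

/-- Lists of strategy trees.  `leaf c h rest`: Maker plays `c` and thereby completes the copy
described by `h`.  `cons c alts rest`: Maker plays `c`; `alts` is a list of continuation trees,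
one of which is followed after the reply of Breaker.  `rest` is the remainder of the list. -/
inductive T : Type
  | nil : T
  | leaf (c h : ℕ) (rest : T) : T
  | cons (c : ℕ) (alts rest : T) : T

/-- Sign from a bit. -/
def sgn (b : Bool) : ℤ := if b then -1 else 1

/-- The bit mask of the copy with orientation code `o` whose bounding box has its lower-left
corner at code `0`. -/
def cmask (o : ℕ) : ℕ :=
  match o with
  | 0 => 402653199
  | 1 => 251658264
  | 2 => 50331678
  | 3 => 503316483
  | 4 => 158456339195628405271017029633
  | 5 => 79228167236631101938216206338
  | 6 => 79228176681364349152466567170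
  | _ => 158456334473262203876382081025

/-- Bound on the column of the lower-left corner of the bounding box. -/
def cwid (o : ℕ) : ℕ := if o < 4 then 20 else 23

/-- All six cells of the copy described by `h` (orientation code `h % 8`, lower-left corner of the
bounding box at code `h / 8`) have their bit set in `m`. -/
def copyOK (m h : ℕ) : Bool :=
  decide ((h / 8) % 24 < cwid (h % 8)) && ((m >>> (h / 8)) &&& cmask (h % 8) == cmask (h % 8))

/-- The mask of all codes. -/
def full : ℕ := 2 ^ N - 1

/-- `chk l m` checks the list `l` of strategy trees in the position where Maker owns the cells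
of the mask `m`; it returns the intersection and the union of the supports of the trees. -/
def chk : T → ℕ → Option (ℕ × ℕ)
  | .nil, _ => some (full, 0)
  | .leaf c h rest, m =>
    if decide (c < N) && !m.testBit c && copyOK (m ||| (1 <<< c)) h then
      match chk rest m with
      | some (I, U) => some (I &&& (1 <<< c), U ||| (1 <<< c))
      | none => none
    else none
  | .cons c alts rest, m =>
    if decide (c < N) && !m.testBit c then
      match chk alts (m ||| (1 <<< c)) with
      | some (I1, U1) =>
        if I1 = 0 then
          match chk rest m with
          | some (I, U) => some (I &&& (U1 ||| (1 <<< c)), U ||| (U1 ||| (1 <<< c)))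
          | none => none
        else none
      | none => none
    else none

/-- The mask `m` represents the set `M` of cells. -/
def Rep (m : ℕ) (M : Finset Cell) : Prop := ∀ i, m.testBit i = true ↔ cellOf i ∈ M

theorem testBit_one_shiftLeft (c i : ℕ) : (1 <<< c).testBit i = decide (i = c) := by
  rw [Nat.one_shiftLeft, Nat.testBit_two_pow]
  by_cases h : i = c
  · simp [h]
  · have : c ≠ i := fun h' => h h'.symm
    simp [h, this]

theorem Rep.insert {m : ℕ} {M : Finset Cell} (h : Rep m M) (c : ℕ) :
    Rep (m ||| (1 <<< c)) (insert (cellOf c) M) := by
  intro i
  rw [Nat.testBit_or, testBit_one_shiftLeft, Bool.or_eq_true, decide_eq_true_eq, Finset.mem_insert,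
    h i]
  constructor
  · rintro (h1 | h1)
    · exact Or.inr h1
    · exact Or.inl (by rw [h1])
  · rintro (h1 | h1)
    · exact Or.inr (cellOf_injective h1)
    · exact Or.inl h1

theorem sgn_cases (b : Bool) : sgn b = 1 ∨ sgn b = -1 := by
  cases b <;> simp [sgn]

theorem bit_of_mask {m s mask e : ℕ} (h : (m >>> s) &&& mask = mask) (he : mask.testBit e = true) :
    m.testBit (s + e) = true := by
  have h1 : ((m >>> s) &&& mask).testBit e = true := by rw [h]; exact he
  rw [Nat.testBit_and, he, Bool.and_true, Nat.testBit_shiftRight] at h1
  exact h1

theorem copy_aux {m s mask : ℕ} {M : Finset Cell} (hr : Rep m M) (hm : (m >>> s) &&& mask = mask)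
    (sw : Bool) (a b : ℤ) (ha : a = 1 ∨ a = -1) (hb : b = 1 ∨ b = -1) (t : Cell) (e : Cell → ℕ)
    (hbits : ∀ c ∈ snaky, mask.testBit (e c) = true)
    (hcell : ∀ c ∈ snaky, t + act sw a b c = cellOf (s + e c)) :
    ∃ A, IsCopy A ∧ A ⊆ M := by
  refine ⟨snaky.image (fun c => t + act sw a b c), ⟨t, sw, a, b, ha, hb, rfl⟩, ?_⟩
  intro p hp
  rw [Finset.mem_image] at hp
  obtain ⟨c, hcs, rfl⟩ := hp
  rw [hcell c hcs]
  exact (hr _).mp (bit_of_mask hm (hbits c hcs))

theorem copyOK_sound {m h : ℕ} {M : Finset Cell} (hr : Rep m M) (hc : copyOK m h = true) :
    ∃ A, IsCopy A ∧ A ⊆ M := by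
  unfold copyOK at hc
  rw [Bool.and_eq_true, decide_eq_true_eq, beq_iff_eq] at hc
  obtain ⟨hw, hm⟩ := hc
  have ho : h % 8 < 8 := Nat.mod_lt _ (by norm_num)
  generalize h % 8 = o at *
  generalize h / 8 = s at *
  interval_cases o
  · refine copy_aux hr hm false 1 1 (by simp) (by simp) (cellOf s + (0, 0))
      (fun c => (c.2 * 24 + c.1).toNat) (by decide) ?_
    norm_num [cwid] at hw
    intro c hc
    simp only [snaky, Finset.mem_insert, Finset.mem_singleton] at hc
    rcases hc with rfl | rfl | rfl | rfl | rfl | rfl <;>
      simp [act, cellOf, W, off] <;> omega
  · refine copy_aux hr hm false 1 (-1) (by simp) (by simp) (cellOf s + (0, 1))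
      (fun c => ((1 - c.2) * 24 + c.1).toNat) (by decide) ?_
    norm_num [cwid] at hw
    intro c hc
    simp only [snaky, Finset.mem_insert, Finset.mem_singleton] at hc
    rcases hc with rfl | rfl | rfl | rfl | rfl | rfl <;>
      simp [act, cellOf, W, off] <;> omega
  · refine copy_aux hr hm false (-1) 1 (by simp) (by simp) (cellOf s + (4, 0))
      (fun c => (c.2 * 24 + (4 - c.1)).toNat) (by decide) ?_
    norm_num [cwid] at hw
    intro c hc
    simp only [snaky, Finset.mem_insert, Finset.mem_singleton] at hc
    rcases hc with rfl | rfl | rfl | rfl | rfl | rfl <;>
      simp [act, cellOf, W, off] <;> omega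
  · refine copy_aux hr hm false (-1) (-1) (by simp) (by simp) (cellOf s + (4, 1))
      (fun c => ((1 - c.2) * 24 + (4 - c.1)).toNat) (by decide) ?_
    norm_num [cwid] at hw
    intro c hc
    simp only [snaky, Finset.mem_insert, Finset.mem_singleton] at hc
    rcases hc with rfl | rfl | rfl | rfl | rfl | rfl <;>
      simp [act, cellOf, W, off] <;> omega
  · refine copy_aux hr hm true 1 1 (by simp) (by simp) (cellOf s + (0, 0))
      (fun c => (c.1 * 24 + c.2).toNat) (by decide) ?_
    norm_num [cwid] at hw
    intro c hc
    simp only [snaky, Finset.mem_insert, Finset.mem_singleton] at hc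
    rcases hc with rfl | rfl | rfl | rfl | rfl | rfl <;>
      simp [act, cellOf, W, off] <;> omega
  · refine copy_aux hr hm true 1 (-1) (by simp) (by simp) (cellOf s + (0, 4))
      (fun c => ((4 - c.1) * 24 + c.2).toNat) (by decide) ?_
    norm_num [cwid] at hw
    intro c hc
    simp only [snaky, Finset.mem_insert, Finset.mem_singleton] at hc
    rcases hc with rfl | rfl | rfl | rfl | rfl | rfl <;>
      simp [act, cellOf, W, off] <;> omega
  · refine copy_aux hr hm true (-1) 1 (by simp) (by simp) (cellOf s + (1, 0))
      (fun c => (c.1 * 24 + (1 - c.2)).toNat) (by decide) ?_
    norm_num [cwid] at hw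
    intro c hc
    simp only [snaky, Finset.mem_insert, Finset.mem_singleton] at hc
    rcases hc with rfl | rfl | rfl | rfl | rfl | rfl <;>
      simp [act, cellOf, W, off] <;> omega
  · refine copy_aux hr hm true (-1) (-1) (by simp) (by simp) (cellOf s + (1, 4))
      (fun c => ((4 - c.1) * 24 + (1 - c.2)).toNat) (by decide) ?_
    norm_num [cwid] at hw
    intro c hc
    simp only [snaky, Finset.mem_insert, Finset.mem_singleton] at hc
    rcases hc with rfl | rfl | rfl | rfl | rfl | rfl <;>
      simp [act, cellOf, W, off] <;> omega

theorem full_testBit {i : ℕ} (h : i < N) : full.testBit i = true := by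
  unfold full
  rw [Nat.testBit_two_pow_sub_one]
  simpa using h

/-- Bits of the union of supports are codes below `N`. -/
theorem chk_union_lt : ∀ (l : T) (m I U : ℕ), chk l m = some (I, U) → ∀ i, U.testBit i = true → i < N := by
  intro l
  induction l with
  | nil =>
    intro m I U h i hi
    simp only [chk, Option.some.injEq, Prod.mk.injEq] at h
    rw [← h.2] at hi
    simp at hi
  | leaf c h rest ih =>
    intro m I U hh i hi
    simp only [chk] at hh
    split at hh
    · rename_i hcond
      simp only [Bool.and_eq_true, decide_eq_true_eq] at hcond
      cases hr : chk rest m with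
      | none => simp [hr] at hh
      | some p =>
        obtain ⟨I', U'⟩ := p
        simp only [hr, Option.some.injEq, Prod.mk.injEq] at hh
        rw [← hh.2, Nat.testBit_or, testBit_one_shiftLeft, Bool.or_eq_true, decide_eq_true_eq] at hi
        rcases hi with hi | hi
        · exact ih m I' U' hr i hi
        · rw [hi]; exact hcond.1.1
    · simp at hh
  | cons c alts rest iha ihr =>
    intro m I U hh i hi
    simp only [chk] at hh
    split at hh
    · rename_i hcond
      simp only [Bool.and_eq_true, decide_eq_true_eq] at hcond
      cases ha : chk alts (m ||| (1 <<< c)) with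
      | none => simp [ha] at hh
      | some p =>
        obtain ⟨I1, U1⟩ := p
        simp only [ha] at hh
        split at hh
        · cases hr : chk rest m with
          | none => simp [hr] at hh
          | some p =>
            obtain ⟨I', U'⟩ := p
            simp only [hr, Option.some.injEq, Prod.mk.injEq] at hh
            rw [← hh.2, Nat.testBit_or, Nat.testBit_or, testBit_one_shiftLeft, Bool.or_eq_true,
              Bool.or_eq_true, decide_eq_true_eq] at hi
            rcases hi with hi | hi | hi
            · exact ihr m I' U' hr i hi
            · exact iha _ I1 U1 ha i hi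
            · rw [hi]; exact hcond.1
        · simp at hh
    · simp at hh

/-- Soundness of the checker: if Breaker's earlier cells `B` avoid the union of the supports and
his last cell `d` avoids their intersection, then Maker wins. -/
theorem chk_sound : ∀ (l : T) (m I U : ℕ), chk l m = some (I, U) → ∀ (M B : Finset Cell) (d : Cell),
    Rep m M → (∀ i, U.testBit i = true → cellOf i ∉ B) → (∀ i, I.testBit i = true → cellOf i ≠ d) →
    I ≠ full → MakerWins M (insert d B) := by
  intro l
  induction l with
  | nil =>
    intro m I U h M B d _ _ _ hne
    simp only [chk, Option.some.injEq, Prod.mk.injEq] at h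
    exact absurd h.1.symm hne
  | leaf c h rest ih =>
    intro m I U hh M B d hrep hU hI hne
    simp only [chk] at hh
    split at hh
    · rename_i hcond
      simp only [Bool.and_eq_true, decide_eq_true_eq, Bool.not_eq_true'] at hcond
      obtain ⟨⟨hcN, hcm⟩, hcopy⟩ := hcond
      cases hr : chk rest m with
      | none => simp [hr] at hh
      | some p =>
        obtain ⟨I', U'⟩ := p
        simp only [hr, Option.some.injEq, Prod.mk.injEq] at hh
        obtain ⟨hI', hU'⟩ := hh
        by_cases hd : cellOf c = d
        · -- the tree is hit by `d`: use the rest
          have hIc : I'.testBit c = false := by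
            by_contra hcon
            have hcon' : I'.testBit c = true := by simpa using hcon
            apply hI c _ hd
            rw [← hI', Nat.testBit_and, hcon', testBit_one_shiftLeft]
            simp
          apply ih m I' U' hr M B d hrep
          · intro i hi
            apply hU i
            rw [← hU', Nat.testBit_or, hi]; simp
          · intro i hi hid
            have : i = c := cellOf_injective (hid.trans hd.symm)
            rw [this, hIc] at hi
            exact absurd hi (by simp)
          · intro hfull
            rw [hfull, full_testBit hcN] at hIc
            exact absurd hIc (by simp)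
        · -- Maker plays `c` and wins
          have hcM : cellOf c ∉ M := by
            intro hmem
            have := (hrep c).mpr hmem
            rw [hcm] at this
            exact absurd this (by simp)
          have hcB : cellOf c ∉ insert d B := by
            rw [Finset.mem_insert, not_or]
            refine ⟨hd, hU c ?_⟩
            rw [← hU', Nat.testBit_or, testBit_one_shiftLeft]; simp
          refine MakerWins.move M _ (cellOf c) hcM hcB ?_
          intro d' _ _
          obtain ⟨A, hA, hsub⟩ := copyOK_sound (hrep.insert c) hcopy
          exact MakerWins.done _ _ A hA hsub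
    · simp at hh
  | cons c alts rest iha ihr =>
    intro m I U hh M B d hrep hU hI hne
    simp only [chk] at hh
    split at hh
    · rename_i hcond
      simp only [Bool.and_eq_true, decide_eq_true_eq, Bool.not_eq_true'] at hcond
      obtain ⟨hcN, hcm⟩ := hcond
      cases ha : chk alts (m ||| (1 <<< c)) with
      | none => simp [ha] at hh
      | some p =>
        obtain ⟨I1, U1⟩ := p
        simp only [ha] at hh
        split at hh
        · rename_i hI1
          cases hr : chk rest m with
          | none => simp [hr] at hh
          | some p =>
            obtain ⟨I', U'⟩ := p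
            simp only [hr, Option.some.injEq, Prod.mk.injEq] at hh
            obtain ⟨hI', hU'⟩ := hh
            by_cases hd : ∃ j, (U1 ||| (1 <<< c)).testBit j = true ∧ cellOf j = d
            · obtain ⟨j, hj, hjd⟩ := hd
              have hjN : j < N := by
                rw [Nat.testBit_or, testBit_one_shiftLeft, Bool.or_eq_true, decide_eq_true_eq] at hj
                rcases hj with hj | hj
                · exact chk_union_lt alts _ I1 U1 ha j hj
                · rw [hj]; exact hcN
              have hIj : I'.testBit j = false := by
                by_contra hcon
                have hcon' : I'.testBit j = true := by simpa using hcon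
                apply hI j _ hjd
                rw [← hI', Nat.testBit_and, hcon', hj]
                simp
              apply ihr m I' U' hr M B d hrep
              · intro i hi
                apply hU i
                rw [← hU', Nat.testBit_or, hi]; simp
              · intro i hi hid
                have : i = j := cellOf_injective (hid.trans hjd.symm)
                rw [this, hIj] at hi
                exact absurd hi (by simp)
              · intro hfull
                rw [hfull, full_testBit hjN] at hIj
                exact absurd hIj (by simp)
            · have hd : ∀ i, (U1 ||| (1 <<< c)).testBit i = true → cellOf i ≠ d :=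
                fun i hi hid => hd ⟨i, hi, hid⟩
              have hcM : cellOf c ∉ M := by
                intro hmem
                have := (hrep c).mpr hmem
                rw [hcm] at this
                exact absurd this (by simp)
              have hZB : ∀ i, (U1 ||| (1 <<< c)).testBit i = true → cellOf i ∉ insert d B := by
                intro i hi
                rw [Finset.mem_insert, not_or]
                refine ⟨hd i hi, hU i ?_⟩
                rw [← hU', Nat.testBit_or, hi]; simp
              have hcB : cellOf c ∉ insert d B := by
                apply hZB c
                rw [Nat.testBit_or, testBit_one_shiftLeft]; simp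
              refine MakerWins.move M _ (cellOf c) hcM hcB ?_
              intro d' _ _
              apply iha _ I1 U1 ha _ _ d' (hrep.insert c)
              · intro i hi
                apply hZB i
                rw [Nat.testBit_or, hi]; simp
              · intro i hi
                rw [hI1] at hi
                simp at hi
              · rw [hI1]
                intro hfull
                have h0 := full_testBit (i := 0) (by unfold N; omega)
                rw [← hfull] at h0
                simp at h0
        · simp at hh
    · simp at hh

end Vale.Agent.P062
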