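import Vale.Agent.P062.Game

/-!
# Symmetries of the Snaky game
-/

namespace Vale.Agent.P062

theorem IsCopy.image_act {A : Finset Cell} (h : IsCopy A) (s' : Bool) (a' b' : ℤ)
    (ha' : a' = 1 ∨ a' = -1) (hb' : b' = 1 ∨ b' = -1) : IsCopy (A.image (act s' a' b')) := by
  obtain ⟨t, s, a, b, ha, hb, rfl⟩ := h
  rw [Finset.image_image]
  cases s' <;> cases s
  · refine ⟨act false a' b' t, false, a' * a, b' * b, ?_, ?_, ?_⟩
    · rcases ha with rfl | rfl <;> rcases ha' with rfl | rfl <;> simp
    · rcases hb with rfl | rfl <;> rcases hb' with rfl | rfl <;> simp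
    · apply Finset.image_congr
      intro c _
      simp [act, mul_add, mul_assoc]
  · refine ⟨act false a' b' t, true, a' * a, b' * b, ?_, ?_, ?_⟩
    · rcases ha with rfl | rfl <;> rcases ha' with rfl | rfl <;> simp
    · rcases hb with rfl | rfl <;> rcases hb' with rfl | rfl <;> simp
    · apply Finset.image_congr
      intro c _
      simp [act, mul_add, mul_assoc]
  · refine ⟨act true a' b' t, true, a' * b, b' * a, ?_, ?_, ?_⟩
    · rcases hb with rfl | rfl <;> rcases ha' with rfl | rfl <;> simp
    · rcases ha with rfl | rfl <;> rcases hb' with rfl | rfl <;> simp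
    · apply Finset.image_congr
      intro c _
      simp [act, mul_add, mul_assoc]
  · refine ⟨act true a' b' t, false, a' * b, b' * a, ?_, ?_, ?_⟩
    · rcases hb with rfl | rfl <;> rcases ha' with rfl | rfl <;> simp
    · rcases ha with rfl | rfl <;> rcases hb' with rfl | rfl <;> simp
    · apply Finset.image_congr
      intro c _
      simp [act, mul_add, mul_assoc]

/-- The game is invariant under an involution of the board that preserves allowed copies. -/
theorem MakerWins.image (g : Cell → Cell) (hg : ∀ x, g (g x) = x)
    (hcopy : ∀ A, IsCopy A → IsCopy (A.image g)) {M B : Finset Cell} (h : MakerWins M B) :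
    MakerWins (M.image g) (B.image g) := by
  have hinj : Function.Injective g := fun x y hxy => by rw [← hg x, ← hg y, hxy]
  induction h with
  | done M B A hA hsub => exact .done _ _ (A.image g) (hcopy A hA) (Finset.image_subset_image hsub)
  | move M B c hM hB h ih =>
    refine .move _ _ (g c) ?_ ?_ ?_
    · rwa [hinj.mem_finset_image]
    · rwa [hinj.mem_finset_image]
    · intro d hd1 hd2
      have e : d = g (g d) := (hg d).symm
      have h1 : g d ∉ insert c M := by
        intro hmem
        apply hd1
        rw [e, ← Finset.image_insert]
        exact Finset.mem_image_of_mem g hmem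
      have h2 : g d ∉ B := by
        intro hmem
        apply hd2
        rw [e]
        exact Finset.mem_image_of_mem g hmem
      have h3 := ih (g d) h1 h2
      rw [Finset.image_insert, Finset.image_insert, hg d] at h3
      exact h3

/-- Transport of a first-reply statement along a symmetry fixing the origin. -/
theorem firstReply_of_image (s : Bool) (a b : ℤ) (ha : a = 1 ∨ a = -1) (hb : b = 1 ∨ b = -1)
    (hinv : ∀ x, act s a b (act s a b x) = x) (d : Cell)
    (h : MakerWins {(0, 0)} {act s a b d}) : MakerWins {(0, 0)} {d} := by
  have h1 := MakerWins.image (act s a b) hinv (fun A hA => hA.image_act s a b ha hb) h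
  rw [Finset.image_singleton, Finset.image_singleton, hinv d] at h1
  have h0 : act s a b (0, 0) = (0, 0) := by cases s <;> simp [act]
  rwa [h0] at h1

end Vale.Agent.P062
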