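import Vale.Agent.P062.AllTrees
import Vale.Agent.P062.Symm

/-!
# Every non-adjacent first reply of Breaker loses
-/

namespace Vale.Agent.P062

theorem full_testBit_lt {i : ℕ} (h : full.testBit i = true) : i < N := by
  have h2 : full.testBit i = decide (i < N) := by
    unfold full
    rw [Nat.testBit_two_pow_sub_one]
  rw [h2] at h
  exact of_decide_eq_true h

/-- Bits of the intersection of supports are codes below `N`. -/
theorem chk_inter_lt : ∀ (l : T) (m I U : ℕ), chk l m = some (I, U) → ∀ i, I.testBit i = true → i < N := by
  intro l
  induction l with
  | nil =>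
    intro m I U h i hi
    have h' : some (full, 0) = some (I, U) := h
    injection h' with h'
    injection h' with h1 h2
    subst h1
    exact full_testBit_lt hi
  | leaf c h rest ih =>
    intro m I U hh i hi
    simp only [chk] at hh
    split at hh
    · cases hr : chk rest m with
      | none => simp [hr] at hh
      | some p =>
        obtain ⟨I', U'⟩ := p
        simp only [hr, Option.some.injEq, Prod.mk.injEq] at hh
        rw [← hh.1, Nat.testBit_and, Bool.and_eq_true] at hi
        exact ih m I' U' hr i hi.1
    · simp at hh
  | cons c alts rest _ ihr =>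
    intro m I U hh i hi
    simp only [chk] at hh
    split at hh
    · cases ha : chk alts (m ||| (1 <<< c)) with
      | none => simp [ha] at hh
      | some p =>
        obtain ⟨I1, U1⟩ := p
        simp only [ha] at hh
        split at hh
        · cases hr : chk rest m with
          | none => simp [hr] at hh
          | some p =>
            obtain ⟨I', U'⟩ := p
            simp only [hr, Option.some.injEq, Prod.mk.injEq] at hh
            rw [← hh.1, Nat.testBit_and, Bool.and_eq_true] at hi
            exact ihr m I' U' hr i hi.1
        · simp at hh
    · simp at hh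

theorem rep_origin : Rep (1 <<< 275) {((0 : ℤ), (0 : ℤ))} := by
  intro i
  rw [testBit_one_shiftLeft, decide_eq_true_eq, Finset.mem_singleton]
  have h275 : cellOf 275 = (0, 0) := by simp [cellOf, W, off]
  constructor
  · rintro rfl
    exact h275
  · intro h
    exact cellOf_injective (h.trans h275.symm)

/-- In the octant `0 ≤ y ≤ x`, the only cell in all supports is `(1, 0)`, coded by `276`. -/
theorem octant_check : ∀ i < N, interMask.testBit i = true →
    (i / W < 11 ∨ i % W < i / W ∨ i = 276) := by
  unfold N W
  decide +kernel

theorem firstReply_octant (d : Cell) (h2 : 0 ≤ d.2) (h12 : d.2 ≤ d.1) (hd : d ≠ (1, 0)) :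
    MakerWins {(0, 0)} {d} := by
  have h := chk_sound allTrees (1 <<< 275) interMask unionMask chk_allTrees {(0, 0)} ∅ d rep_origin
    (by simp) ?_ ?_
  · simpa using h
  · intro i hi hid
    have hiN := chk_inter_lt _ _ _ _ chk_allTrees i hi
    have hc := octant_check i hiN hi
    obtain ⟨x, y⟩ := d
    simp only [cellOf, W, off, Prod.mk.injEq] at hid
    simp only [W] at hc
    simp only at h2 h12
    rcases hc with hc | hc | hc
    · omega
    · omega
    · apply hd
      rw [hc] at hid
      simp only [Prod.mk.injEq]
      omega
  · intro hfull
    have h0 : interMask.testBit 277 = true := by rw [hfull]; exact full_testBit (by unfold N; omega)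
    have h1 := octant_check 277 (by unfold N; omega) h0
    simp [W] at h1

theorem firstReply_quadrant (d : Cell) (h1 : 0 ≤ d.1) (h2 : 0 ≤ d.2) (hd : d ≠ (1, 0))
    (hd' : d ≠ (0, 1)) : MakerWins {(0, 0)} {d} := by
  by_cases h12 : d.2 ≤ d.1
  · exact firstReply_octant d h2 h12 hd
  · apply firstReply_of_image true 1 1 (by simp) (by simp) (by intro x; simp [act])
    apply firstReply_octant
    · simpa [act] using h1
    · simp only [act, if_true, one_mul]
      omega
    · intro h
      apply hd'
      obtain ⟨x, y⟩ := d
      simp only [act, if_true, one_mul, Prod.mk.injEq] at h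
      simp only [Prod.mk.injEq]
      omega

theorem firstReply_half (d : Cell) (h1 : 0 ≤ d.1) (hd : d ≠ (1, 0))
    (hd' : d ≠ (0, 1)) (hd'' : d ≠ (0, -1)) : MakerWins {(0, 0)} {d} := by
  by_cases h2 : 0 ≤ d.2
  · exact firstReply_quadrant d h1 h2 hd hd'
  · apply firstReply_of_image false 1 (-1) (by simp) (by simp) (by intro x; simp [act])
    obtain ⟨x, y⟩ := d
    simp only [Prod.mk.injEq, ne_eq] at hd hd' hd''
    simp only at h1 h2
    apply firstReply_quadrant
    · simpa [act] using h1
    · simp only [act]
      simp
      omega
    · simp only [act]
      simp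
      omega
    · simp only [act]
      simp
      omega

/-- After the first move of Maker at the origin, every reply of Breaker other than one of the four
edge-adjacent cells loses. -/
theorem firstReply (d : Cell) (hd : d ∉ ({(1, 0), (-1, 0), (0, 1), (0, -1)} : Finset Cell)) :
    MakerWins {(0, 0)} {d} := by
  simp only [Finset.mem_insert, Finset.mem_singleton, not_or] at hd
  obtain ⟨hd1, hd2, hd3, hd4⟩ := hd
  by_cases h1 : 0 ≤ d.1
  · exact firstReply_half d h1 hd1 hd3 hd4
  · apply firstReply_of_image false (-1) 1 (by simp) (by simp) (by intro x; simp [act])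
    obtain ⟨x, y⟩ := d
    simp only [Prod.mk.injEq] at hd1 hd2 hd3 hd4
    simp only at h1
    apply firstReply_half
    · simp only [act]
      simp
      omega
    · simp only [act]
      simp
      omega
    · simp only [act]
      simp
      omega
    · simp only [act]
      simp
      omega

end Vale.Agent.P062
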