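import Mathlib

/-!
# The Snaky achievement game on the square grid: definitions

Cells of the board are pairs of integers.  `MakerWins M B` says that Maker, to move, with Maker
owning `M` and Breaker owning `B`, can force ownership of an allowed copy of Snaky after finitely
many turns, whatever Breaker plays.
-/

namespace Vale.Agent.P062

/-- A cell of the square grid, indexed by its lower-left corner. -/
abbrev Cell := ℤ × ℤ

/-- The hexomino Snaky. -/
def snaky : Finset Cell := {(0, 0), (1, 0), (2, 0), (3, 0), (3, 1), (4, 1)}

/-- The action on cells of the signed permutation matrix with signs `a`, `b`
(`s = true` means that the two coordinates are also exchanged). -/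
def act (s : Bool) (a b : ℤ) (c : Cell) : Cell :=
  if s then (a * c.2, b * c.1) else (a * c.1, b * c.2)

/-- `A` is an allowed copy of Snaky: `A = t + R(S)` with `R` one of the eight signed
permutation matrices. -/
def IsCopy (A : Finset Cell) : Prop :=
  ∃ (t : Cell) (s : Bool) (a b : ℤ), (a = 1 ∨ a = -1) ∧ (b = 1 ∨ b = -1) ∧
    A = snaky.image (fun c => t + act s a b c)

/-- `MakerWins M B`: in the position where Maker owns the cells `M`, Breaker owns the cells `B`
and Maker is to move, Maker can force a win after finitely many turns against every legal play
of Breaker.  Either Maker already owns an allowed copy, or Maker has a legal move `c` such that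
after every legal reply `d` of Breaker the new position is again winning. -/
inductive MakerWins : Finset Cell → Finset Cell → Prop
  | done (M B A : Finset Cell) (hA : IsCopy A) (h : A ⊆ M) : MakerWins M B
  | move (M B : Finset Cell) (c : Cell) (hM : c ∉ M) (hB : c ∉ B)
      (h : ∀ d : Cell, d ∉ insert c M → d ∉ B → MakerWins (insert c M) (insert d B)) :
      MakerWins M B

end Vale.Agent.P062
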