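import Vale.Agent.P062.SecondTrees
import Vale.Agent.P062.Reduction

/-!
# The second reply of Breaker in the main line
-/

namespace Vale.Agent.P062

theorem rep_second : Rep Second.makerMask {((0 : ℤ), (0 : ℤ)), (0, -1)} := by
  have h := (rep_origin.insert 251)
  have h251 : cellOf 251 = (0, -1) := by simp [cellOf, W, off]
  rw [h251] at h
  have hm : Second.makerMask = 1 <<< 275 ||| 1 <<< 251 := by decide +kernel
  rw [hm]
  have hs : ({((0 : ℤ), (0 : ℤ)), (0, -1)} : Finset Cell) = insert (0, -1) {(0, 0)} := by
    ext x
    simp only [Finset.mem_insert, Finset.mem_singleton]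
    tauto
  rw [hs]
  exact h

/-- The only codes in all supports are `299` (the cell `(0,1)`) and `227` (the cell `(0,-2)`). -/
theorem second_inter_check : ∀ i < N, Second.interMask.testBit i = true → (i = 299 ∨ i = 227) := by
  unfold N
  decide +kernel

/-- The code `276` of the cell `(1,0)` is in no support. -/
theorem second_union_check : Second.unionMask.testBit 276 = false := by decide +kernel

/-- In the position Maker `(0,0)`, `(0,-1)`, Breaker `(1,0)`, every reply of Breaker other than
`(0,1)` and `(0,-2)` loses. -/
theorem secondReply (d : Cell) (hd : d ≠ (0, 1)) (hd' : d ≠ (0, -2)) :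
    MakerWins {(0, 0), (0, -1)} {d, (1, 0)} := by
  refine chk_sound Second.trees Second.makerMask Second.interMask Second.unionMask Second.chk_trees
    {(0, 0), (0, -1)} {(1, 0)} d rep_second ?_ ?_ ?_
  · intro i hi hmem
    rw [Finset.mem_singleton] at hmem
    have h276 : cellOf 276 = (1, 0) := by simp [cellOf, W, off]
    have : i = 276 := cellOf_injective (hmem.trans h276.symm)
    rw [this, second_union_check] at hi
    exact absurd hi (by simp)
  · intro i hi hid
    have hiN := chk_inter_lt _ _ _ _ Second.chk_trees i hi
    rcases second_inter_check i hiN hi with rfl | rfl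
    · apply hd
      rw [← hid]
      simp [cellOf, W, off]
    · apply hd'
      rw [← hid]
      simp [cellOf, W, off]
  · intro hfull
    have h0 : Second.interMask.testBit 0 = true := by
      rw [hfull]; exact full_testBit (by unfold N; omega)
    have h1 := second_inter_check 0 (by unfold N; omega) h0
    omega

/-- If Maker wins the two remaining positions of the main line, then Maker wins the game. -/
theorem twoPositions (h1 : MakerWins {(0, 0), (0, -1)} {(0, 1), (1, 0)})
    (h2 : MakerWins {(0, 0), (0, -1)} {(0, -2), (1, 0)}) : MakerWins ∅ ∅ := by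
  rw [reduction]
  refine MakerWins.move _ _ (0, -1) (by simp) (by simp) ?_
  intro d _ _
  have hs : (insert ((0 : ℤ), (-1 : ℤ)) {((0 : ℤ), (0 : ℤ))} : Finset Cell) = {(0, 0), (0, -1)} := by
    ext x
    simp only [Finset.mem_insert, Finset.mem_singleton]
    tauto
  rw [hs]
  by_cases hd : d = (0, 1)
  · rw [hd]; exact h1
  · by_cases hd' : d = (0, -2)
    · rw [hd']; exact h2
    · exact secondReply d hd hd'

end Vale.Agent.P062
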