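import Vale.Agent.P062.PosATrees
import Vale.Agent.P062.SecondReply

/-!
# The position Maker (0,0), (0,-1), Breaker (1,0), (0,1)
-/

namespace Vale.Agent.P062

/-- Maker wins a position with two Breaker cells, given an accepted list of trees whose supports
avoid these cells. -/
theorem wins_two (l : T) (m I U : ℕ) (h : chk l m = some (I, U)) (M : Finset Cell) (hr : Rep m M)
    (i j : ℕ) (hi : U.testBit i = false) (hj : I.testBit j = false) (hjN : j < N) :
    MakerWins M {cellOf j, cellOf i} := by
  refine chk_sound l m I U h M {cellOf i} (cellOf j) hr ?_ ?_ ?_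
  · intro k hk hmem
    rw [Finset.mem_singleton] at hmem
    rw [cellOf_injective hmem, hi] at hk
    exact absurd hk (by simp)
  · intro k hk hkj
    rw [cellOf_injective hkj, hj] at hk
    exact absurd hk (by simp)
  · intro hfull
    rw [hfull, full_testBit hjN] at hj
    exact absurd hj (by simp)

theorem posA_mask : PosA.makerMask = Second.makerMask := by decide +kernel

theorem posA : MakerWins {(0, 0), (0, -1)} {(0, 1), (1, 0)} := by
  have h := wins_two PosA.trees PosA.makerMask PosA.interMask PosA.unionMask PosA.chk_trees
    {(0, 0), (0, -1)} (by rw [posA_mask]; exact rep_second) 276 299 (by decide +kernel)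
    (by decide +kernel) (by unfold N; omega)
  have h276 : cellOf 276 = (1, 0) := by simp [cellOf, W, off]
  have h299 : cellOf 299 = (0, 1) := by simp [cellOf, W, off]
  rwa [h276, h299] at h

end Vale.Agent.P062
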