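import Vale.Agent.P062.PosA.D0

namespace Vale.Agent.P062.PosA

open Vale.Agent.P062

/-- The list of strategy trees. -/
noncomputable def trees : T := .cons 250 PosA.D0.top0 .nil

/-- The mask of the cells owned by Maker. -/
def makerMask : ℕ := 60708406500556822132364291574828247354072334135066380840386764037390259159948066816

/-- The intersection of the supports of the trees. -/
def interMask : ℕ := 35304202211487102633245408510254065364570332824494168407741490407730394413068660503369921524476095515107538886484557824

/-- The union of the supports of the trees. -/
def unionMask : ℕ := 35304202211487102633245408510254065364570332824494168407741490407730394413068660503369921524476095515107538886484557824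

/-- The checker accepts the list. -/
theorem chk_trees : chk trees makerMask = some (interMask, unionMask) := by decide +kernel

end Vale.Agent.P062.PosA
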