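import Vale.Agent.P062.Second.D0
import Vale.Agent.P062.Second.D1
import Vale.Agent.P062.Second.D2

namespace Vale.Agent.P062.Second

open Vale.Agent.P062

/-- The list of strategy trees. -/
noncomputable def trees : T := .cons 299 Second.D0.top0 (.cons 299 Second.D0.top1 (.cons 204 Second.D1.top0 (.cons 227 Second.D2.top0 (.cons 227 Second.D2.top1 (.cons 299 Second.D2.top2 (.cons 299 Second.D2.top3 (.cons 250 Second.D2.top4 (.cons 299 Second.D2.top5 (.cons 227 Second.D2.top6 (.cons 299 Second.D2.top7 (.cons 299 Second.D2.top8 (.cons 299 Second.D2.top9 (.cons 299 Second.D2.top10 (.cons 299 Second.D2.top11 (.cons 299 Second.D2.top12 (.cons 227 Second.D2.top13 (.cons 299 Second.D2.top14 (.cons 227 Second.D2.top15 (.cons 299 Second.D2.top16 .nil)))))))))))))))))))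

/-- The mask of the cells owned by Maker. -/
def makerMask : ℕ := 60708406500556822132364291574828247354072334135066380840386764037390259159948066816

/-- The intersection of the supports of the trees. -/
def interMask : ℕ := 1018517988167243043134438523778026285644091532953664282363459321832570974461517181973692416

/-- The union of the supports of the trees. -/
def unionMask : ℕ := 134078116061139924282744116816332352665000967654207657723190182909199704354960508248744172225992495312168602814311406209555458054647758868183586804777111552

/-- The checker accepts the list. -/
theorem chk_trees : chk trees makerMask = some (interMask, unionMask) := by decide +kernel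

end Vale.Agent.P062.Second
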